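import Vale.Agent.P252b.Main
import Vale.Agent.P252.Glue

namespace Vale.Agent.Results.P252.Bernstein

open Vale.Agent.P252 Vale.Agent.P252b
open scoped ContDiff

/-- The affine Bernstein property holds in dimension `n ≥ 3` exactly when `n ≤ 9`. -/
theorem result (n : ℕ) (hn : 3 ≤ n) :
    (∀ (Ω : Set (EuclideanSpace ℝ (Fin n))) (u : EuclideanSpace ℝ (Fin n) → ℝ),
      Ω.Nonempty → IsOpen Ω → Convex ℝ Ω → ContDiffOn ℝ ∞ u Ω →
      (∀ x ∈ Ω, (hess u x).PosDef) →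
      (∀ x ∈ Ω, ∑ i, ∑ j, cofU u x i j * hess (wfun u) x i j = 0) →
      EuclideanComplete Ω u →
      Ω = Set.univ ∧ ∃ (A : Matrix (Fin n) (Fin n) ℝ) (b : Fin n → ℝ) (c : ℝ), A.PosDef ∧
        ∀ x : EuclideanSpace ℝ (Fin n),
          u x = (1 / 2) * dotProduct x.ofLp (Matrix.mulVec A x.ofLp) + dotProduct b x.ofLp + c) ↔
    n ≤ 9 := by
  constructor
  · intro h
    by_contra h9
    obtain ⟨m, rfl⟩ : ∃ m, n = m + 1 := ⟨n - 1, by omega⟩
    obtain ⟨A, B, Y, ψ, hP⟩ := exists_profile m (by omega)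
    obtain ⟨-, A', b, c, -, hq⟩ := h Set.univ (uf ψ) Set.univ_nonempty isOpen_univ convex_univ
      hP.contDiff_u.contDiffOn (fun x _ => hP.posDef_u x) (fun x _ => hP.AM (by omega) x)
      (complete_univ hP.contDiff_u)
    exact hP.not_quadratic ⟨A', b, c, hq⟩
  · intro h9 Ω u hne ho hc hu hp ham hcomp
    exact bernstein hn h9 hne ho hc hu hp ham hcomp

end Vale.Agent.Results.P252.Bernstein
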