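import Vale.Agent.P252.Defs
import Vale.Agent.P252.Glue

namespace Vale.Agent.Results.P252.Counterexample

open Vale.Agent.P252
open scoped ContDiff

/-- In every dimension `n ≥ 10` there is a smooth entire solution of the affine maximal equation
with positive definite Hessian that is not a quadratic polynomial. -/
theorem result (n : ℕ) (hn : 10 ≤ n) :
    ∃ u : EuclideanSpace ℝ (Fin n) → ℝ,
      ContDiff ℝ ∞ u ∧
      (∀ x, (hess u x).PosDef) ∧
      (∀ x, ∑ i, ∑ j, cofU u x i j * hess (wfun u) x i j = 0) ∧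
      ¬ ∃ (A : Matrix (Fin n) (Fin n) ℝ) (b : Fin n → ℝ) (c : ℝ),
        ∀ x : EuclideanSpace ℝ (Fin n),
          u x = (1 / 2) * dotProduct x.ofLp (Matrix.mulVec A x.ofLp) + dotProduct b x.ofLp + c := by
  obtain ⟨m, rfl⟩ : ∃ m, n = m + 1 := ⟨n - 1, by omega⟩
  obtain ⟨A, B, Y, ψ, h⟩ := exists_profile m (by omega)
  exact ⟨uf ψ, h.contDiff_u, h.posDef_u, h.AM (by omega), h.not_quadratic⟩

end Vale.Agent.Results.P252.Counterexample
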